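import Mathlib

/-!
# P154, four colours, full product of simplices: polynomial minorants of the powers of `1 / Z` on `0 < Z ≤ 4`

`Lj z` (`z = Z - 1`) satisfies `Lj (Z - 1) * Z ^ j ≤ 1`.  Proof: `1 - Z ^ j * Lj z = z ^ r * gj z` and `gj ≥ 0` on `[-1, 3]`, shown on each
interval of a partition by writing `gj` with nonnegative coefficients in `z - p`, `q - z`.
-/

namespace Vale.Agent.P154.TT15

noncomputable def L1 (z : ℝ) : ℝ :=
  1 + (-1) * z + 1 * z ^ 2 + (-1) * z ^ 3 + (983516607383 / 1000000000000) * z ^ 4 + (-3904686743 / 3906250000) * z ^ 5 + (188730588781 / 200000000000) * z ^ 6 + (-332915024343 / 500000000000) * z ^ 7 + (308652745943 / 1000000000000) * z ^ 8 + (-87311689421 / 1000000000000) * z ^ 9 + (13606875487 / 1000000000000) * z ^ 10 + (-178702659 / 200000000000) * z ^ 11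

noncomputable def g1 (z : ℝ) : ℝ :=
  (16483392617 / 1000000000000) + (643327953 / 40000000000) * z + (55946862303 / 1000000000000) * z ^ 2 + (-277822895219 / 1000000000000) * z ^ 3 + (357177302743 / 1000000000000) * z ^ 4 + (-110670528261 / 500000000000) * z ^ 5 + (36852406967 / 500000000000) * z ^ 6 + (-794585137 / 62500000000) * z ^ 7 + (178702659 / 200000000000) * z ^ 8

theorem L1_eq (z : ℝ) : 1 - L1 z * (1 + z) ^ 1 = z ^ 4 * g1 z := by
  unfold L1 g1
  ring

theorem g1_nonneg_0 (z : ℝ) (h1 : (-1) ≤ z) (h2 : z ≤ 0) : 0 ≤ g1 z := by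
  have hu : 0 ≤ z - (-1) := by linarith
  have hv : 0 ≤ 0 - z := by linarith
  have key : g1 z =
      1 * (0 - z) ^ 8
      + (499616971209 / 125000000000) * (z - (-1)) ^ 1 * (0 - z) ^ 7
      + (1655502876161 / 250000000000) * (z - (-1)) ^ 2 * (0 - z) ^ 6
      + (5907374493421 / 1000000000000) * (z - (-1)) ^ 3 * (0 - z) ^ 5
      + (1588210118849 / 500000000000) * (z - (-1)) ^ 4 * (0 - z) ^ 4
      + (149853360033 / 125000000000) * (z - (-1)) ^ 5 * (0 - z) ^ 3
      + (101224865951 / 250000000000) * (z - (-1)) ^ 6 * (0 - z) ^ 2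
      + (115783942111 / 1000000000000) * (z - (-1)) ^ 7 * (0 - z) ^ 1
      + (16483392617 / 1000000000000) * (z - (-1)) ^ 8 := by
    unfold g1
    ring
  rw [key]
  positivity

theorem g1_nonneg_1 (z : ℝ) (h1 : 0 ≤ z) (h2 : z ≤ 1) : 0 ≤ g1 z := by
  have hu : 0 ≤ z - 0 := by linarith
  have hv : 0 ≤ 1 - z := by linarith
  have key : g1 z =
      (16483392617 / 1000000000000) * (1 - z) ^ 8
      + (147950339761 / 1000000000000) * (z - 0) ^ 1 * (1 - z) ^ 7
      + (315032123677 / 500000000000) * (z - 0) ^ 2 * (1 - z) ^ 6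
      + (329668860119 / 250000000000) * (z - 0) ^ 3 * (1 - z) ^ 5
      + (762007601629 / 500000000000) * (z - 0) ^ 4 * (1 - z) ^ 4
      + (1034058393747 / 1000000000000) * (z - 0) ^ 5 * (1 - z) ^ 3
      + (206500805891 / 500000000000) * (z - 0) ^ 6 * (1 - z) ^ 2
      + (22599634379 / 250000000000) * (z - 0) ^ 7 * (1 - z) ^ 1
      + (1051471223 / 125000000000) * (z - 0) ^ 8 := by
    unfold g1
    ring
  rw [key]
  positivity

theorem g1_nonneg_2 (z : ℝ) (h1 : 1 ≤ z) (h2 : z ≤ 2) : 0 ≤ g1 z := by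
  have hu : 0 ≤ z - 1 := by linarith
  have hv : 0 ≤ 2 - z := by linarith
  have key : g1 z =
      (1051471223 / 125000000000) * (2 - z) ^ 8
      + (11047444757 / 250000000000) * (z - 1) ^ 1 * (2 - z) ^ 7
      + (44770151183 / 500000000000) * (z - 1) ^ 2 * (2 - z) ^ 6
      + (3878266381 / 40000000000) * (z - 1) ^ 3 * (2 - z) ^ 5
      + (18279906577 / 250000000000) * (z - 1) ^ 4 * (2 - z) ^ 4
      + (10519691199 / 250000000000) * (z - 1) ^ 5 * (2 - z) ^ 3
      + (8083026393 / 500000000000) * (z - 1) ^ 6 * (2 - z) ^ 2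
      + (3433282231 / 1000000000000) * (z - 1) ^ 7 * (2 - z) ^ 1
      + (314247631 / 1000000000000) * (z - 1) ^ 8 := by
    unfold g1
    ring
  rw [key]
  positivity

theorem g1_nonneg_3 (z : ℝ) (h1 : 2 ≤ z) (h2 : z ≤ 3) : 0 ≤ g1 z := by
  have hu : 0 ≤ z - 2 := by linarith
  have hv : 0 ≤ 3 - z := by linarith
  have key : g1 z =
      (314247631 / 1000000000000) * (3 - z) ^ 8
      + (318935973 / 200000000000) * (z - 2) ^ 1 * (3 - z) ^ 7
      + (51497441 / 15625000000) * (z - 2) ^ 2 * (3 - z) ^ 6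
      + (53763749 / 12500000000) * (z - 2) ^ 3 * (3 - z) ^ 5
      + (3233366887 / 250000000000) * (z - 2) ^ 4 * (3 - z) ^ 4
      + (31911910251 / 1000000000000) * (z - 2) ^ 5 * (3 - z) ^ 3
      + (1005904909 / 31250000000) * (z - 2) ^ 6 * (3 - z) ^ 2
      + (289491097 / 25000000000) * (z - 2) ^ 7 * (3 - z) ^ 1
      + (9677117 / 6250000000) * (z - 2) ^ 8 := by
    unfold g1
    ring
  rw [key]
  positivity

theorem g1_nonneg (z : ℝ) (h1 : -1 ≤ z) (h2 : z ≤ 3) : 0 ≤ g1 z := by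
  by_cases cg1_nonneg_0 : z ≤ 0
  · exact g1_nonneg_0 z (by linarith) cg1_nonneg_0
  push Not at cg1_nonneg_0
  by_cases cg1_nonneg_1 : z ≤ 1
  · exact g1_nonneg_1 z (by linarith) cg1_nonneg_1
  push Not at cg1_nonneg_1
  by_cases cg1_nonneg_2 : z ≤ 2
  · exact g1_nonneg_2 z (by linarith) cg1_nonneg_2
  push Not at cg1_nonneg_2
  exact g1_nonneg_3 z (by linarith) h2

theorem L1_le (Z : ℝ) (h0 : 0 < Z) (h4 : Z ≤ 4) : L1 (Z - 1) * Z ^ 1 ≤ 1 := by
  have h := L1_eq (Z - 1)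
  have hg := g1_nonneg (Z - 1) (by linarith) (by linarith)
  have hz : 0 ≤ (Z - 1) ^ 4 := by positivity
  have e : (1 : ℝ) + (Z - 1) = Z := by ring
  rw [e] at h
  nlinarith [mul_nonneg hz hg]

noncomputable def L2 (z : ℝ) : ℝ :=
  1 + (-2) * z + 3 * z ^ 2 + (-4) * z ^ 3 + (974164251929 / 200000000000) * z ^ 4 + (-349322699779 / 62500000000) * z ^ 5 + (1535348629101 / 200000000000) * z ^ 6 + (-2264697186983 / 200000000000) * z ^ 7 + (10597423332823 / 1000000000000) * z ^ 8 + (-5339268311623 / 1000000000000) * z ^ 9 + (167859091791 / 125000000000) * z ^ 10 + (-132918056279 / 1000000000000) * z ^ 11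

noncomputable def g2 (z : ℝ) : ℝ :=
  (25835748071 / 200000000000) + (-76239661413 / 500000000000) * z + (-684619006111 / 500000000000) * z ^ 2 + (1559162840369 / 1000000000000) * z ^ 3 + (2186402695751 / 500000000000) * z ^ 4 + (-1133023104777 / 250000000000) * z ^ 5 + (-252351888781 / 200000000000) * z ^ 6 + (1393220449623 / 500000000000) * z ^ 7 + (-107703662177 / 100000000000) * z ^ 8 + (132918056279 / 1000000000000) * z ^ 9

theorem L2_eq (z : ℝ) : 1 - L2 z * (1 + z) ^ 2 = z ^ 4 * g2 z := by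
  unfold L2 g2
  ring

theorem g2_nonneg_0 (z : ℝ) (h1 : (-1) ≤ z) (h2 : z ≤ (-1 / 2)) : 0 ≤ g2 z := by
  have hu : 0 ≤ z - (-1) := by linarith
  have hv : 0 ≤ (-1 / 2) - z := by linarith
  have key : g2 z =
      512 * ((-1 / 2) - z) ^ 9
      + 5632 * (z - (-1)) ^ 1 * ((-1 / 2) - z) ^ 8
      + (80563652014209 / 3906250000) * (z - (-1)) ^ 2 * ((-1 / 2) - z) ^ 7
      + (596769061379399 / 15625000000) * (z - (-1)) ^ 3 * ((-1 / 2) - z) ^ 6
      + (1284976403905479 / 31250000000) * (z - (-1)) ^ 4 * ((-1 / 2) - z) ^ 5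
      + (422470233321663 / 15625000000) * (z - (-1)) ^ 5 * ((-1 / 2) - z) ^ 4
      + (1357661886988193 / 125000000000) * (z - (-1)) ^ 6 * ((-1 / 2) - z) ^ 3
      + (10001603053569 / 3906250000) * (z - (-1)) ^ 7 * ((-1 / 2) - z) ^ 2
      + (32579914314991 / 100000000000) * (z - (-1)) ^ 8 * ((-1 / 2) - z) ^ 1
      + (19041755142933 / 1000000000000) * (z - (-1)) ^ 9 := by
    unfold g2
    ring
  rw [key]
  positivity

theorem g2_nonneg_1 (z : ℝ) (h1 : (-1 / 2) ≤ z) (h2 : z ≤ 0) : 0 ≤ g2 z := by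
  have hu : 0 ≤ z - (-1 / 2) := by linarith
  have hv : 0 ≤ 0 - z := by linarith
  have key : g2 z =
      (19041755142933 / 1000000000000) * (0 - z) ^ 9
      + (4238112355721 / 250000000000) * (z - (-1 / 2)) ^ 1 * (0 - z) ^ 8
      + (5602301993591 / 62500000000) * (z - (-1 / 2)) ^ 2 * (0 - z) ^ 7
      + (161375708918351 / 125000000000) * (z - (-1 / 2)) ^ 3 * (0 - z) ^ 6
      + (65737313791577 / 15625000000) * (z - (-1 / 2)) ^ 4 * (0 - z) ^ 5
      + (99690967731077 / 15625000000) * (z - (-1 / 2)) ^ 5 * (0 - z) ^ 4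
      + (16631460532719 / 3125000000) * (z - (-1 / 2)) ^ 6 * (0 - z) ^ 3
      + (9836084882057 / 3906250000) * (z - (-1 / 2)) ^ 7 * (0 - z) ^ 2
      + (154856040576 / 244140625) * (z - (-1 / 2)) ^ 8 * (0 - z) ^ 1
      + (25835748071 / 390625000) * (z - (-1 / 2)) ^ 9 := by
    unfold g2
    ring
  rw [key]
  positivity

theorem g2_nonneg_2 (z : ℝ) (h1 : 0 ≤ z) (h2 : z ≤ (1 / 2)) : 0 ≤ g2 z := by
  have hu : 0 ≤ z - 0 := by linarith
  have hv : 0 ≤ (1 / 2) - z := by linarith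
  have key : g2 z =
      (25835748071 / 390625000) * ((1 / 2) - z) ^ 9
      + (543184500891 / 976562500) * (z - 0) ^ 1 * ((1 / 2) - z) ^ 8
      + (7396415716841 / 3906250000) * (z - 0) ^ 2 * ((1 / 2) - z) ^ 7
      + (52120260031309 / 15625000000) * (z - 0) ^ 3 * ((1 / 2) - z) ^ 6
      + (50090185189457 / 15625000000) * (z - 0) ^ 4 * ((1 / 2) - z) ^ 5
      + (24857732010533 / 15625000000) * (z - 0) ^ 5 * ((1 / 2) - z) ^ 4
      + (41308446122319 / 125000000000) * (z - 0) ^ 6 * ((1 / 2) - z) ^ 3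
      + (1544240503051 / 31250000000) * (z - 0) ^ 7 * ((1 / 2) - z) ^ 2
      + (13577357318273 / 250000000000) * (z - 0) ^ 8 * ((1 / 2) - z) ^ 1
      + (18075591318323 / 1000000000000) * (z - 0) ^ 9 := by
    unfold g2
    ring
  rw [key]
  positivity

theorem g2_nonneg_3 (z : ℝ) (h1 : (1 / 2) ≤ z) (h2 : z ≤ 1) : 0 ≤ g2 z := by
  have hu : 0 ≤ z - (1 / 2) := by linarith
  have hv : 0 ≤ 1 - z := by linarith
  have key : g2 z =
      (18075591318323 / 1000000000000) * (1 - z) ^ 9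
      + (135525607228361 / 500000000000) * (z - (1 / 2)) ^ 1 * (1 - z) ^ 8
      + (111459373597917 / 62500000000) * (z - (1 / 2)) ^ 2 * (1 - z) ^ 7
      + (803186682964381 / 125000000000) * (z - (1 / 2)) ^ 3 * (1 - z) ^ 6
      + (216968285570727 / 15625000000) * (z - (1 / 2)) ^ 4 * (1 - z) ^ 5
      + (586429400401719 / 31250000000) * (z - (1 / 2)) ^ 5 * (1 - z) ^ 4
      + (249612128437429 / 15625000000) * (z - (1 / 2)) ^ 6 * (1 - z) ^ 3
      + (16247499280551 / 1953125000) * (z - (1 / 2)) ^ 7 * (1 - z) ^ 2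
      + (2362602533653 / 976562500) * (z - (1 / 2)) ^ 8 * (1 - z) ^ 1
      + (14697502698 / 48828125) * (z - (1 / 2)) ^ 9 := by
    unfold g2
    ring
  rw [key]
  positivity

theorem g2_nonneg_4 (z : ℝ) (h1 : 1 ≤ z) (h2 : z ≤ 2) : 0 ≤ g2 z := by
  have hu : 0 ≤ z - 1 := by linarith
  have hv : 0 ≤ 2 - z := by linarith
  have key : g2 z =
      (7348751349 / 12500000000) * (2 - z) ^ 9
      + (1605723194807 / 250000000000) * (z - 1) ^ 1 * (2 - z) ^ 8
      + (7164947214399 / 250000000000) * (z - 1) ^ 2 * (2 - z) ^ 7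
      + (67031901969191 / 1000000000000) * (z - 1) ^ 3 * (2 - z) ^ 6
      + (87608922522729 / 1000000000000) * (z - 1) ^ 4 * (2 - z) ^ 5
      + (31488923108631 / 500000000000) * (z - 1) ^ 5 * (2 - z) ^ 4
      + (22917393749899 / 1000000000000) * (z - 1) ^ 6 * (2 - z) ^ 3
      + (907492415733 / 250000000000) * (z - 1) ^ 7 * (2 - z) ^ 2
      + (158687290829 / 1000000000000) * (z - 1) ^ 8 * (2 - z) ^ 1
      + (2999956639 / 1000000000000) * (z - 1) ^ 9 := by
    unfold g2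
    ring
  rw [key]
  positivity

theorem g2_nonneg_5 (z : ℝ) (h1 : 2 ≤ z) (h2 : z ≤ (17 / 8)) : 0 ≤ g2 z := by
  have hu : 0 ≤ z - 2 := by linarith
  have hv : 0 ≤ (17 / 8) - z := by linarith
  have key : g2 z =
      (98302579146752 / 244140625) * ((17 / 8) - z) ^ 9
      + (69066094125056 / 48828125) * (z - 2) ^ 1 * ((17 / 8) - z) ^ 8
      + (487607440674816 / 244140625) * (z - 2) ^ 2 * ((17 / 8) - z) ^ 7
      + (1892688906268736 / 244140625) * (z - 2) ^ 3 * ((17 / 8) - z) ^ 6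
      + (8014313389082448 / 244140625) * (z - 2) ^ 4 * ((17 / 8) - z) ^ 5
      + (16960324028417112 / 244140625) * (z - 2) ^ 5 * ((17 / 8) - z) ^ 4
      + (156540598295635907 / 1953125000) * (z - 2) ^ 6 * ((17 / 8) - z) ^ 3
      + (409697592246746787 / 7812500000) * (z - 2) ^ 7 * ((17 / 8) - z) ^ 2
      + (23008813044213029 / 1250000000) * (z - 2) ^ 8 * ((17 / 8) - z) ^ 1
      + (4327432932459111 / 1600000000) * (z - 2) ^ 9 := by
    unfold g2
    ring
  rw [key]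
  positivity

theorem g2_nonneg_6 (z : ℝ) (h1 : (17 / 8) ≤ z) (h2 : z ≤ (9 / 4)) : 0 ≤ g2 z := by
  have hu : 0 ≤ z - (17 / 8) := by linarith
  have hv : 0 ≤ (9 / 4) - z := by linarith
  have key : g2 z =
      (4327432932459111 / 1600000000) * ((9 / 4) - z) ^ 9
      + (605531401095891511 / 20000000000) * (z - (17 / 8)) ^ 1 * ((9 / 4) - z) ^ 8
      + (9212340547686050471 / 62500000000) * (z - (17 / 8)) ^ 2 * ((9 / 4) - z) ^ 7
      + (2562259261563399247 / 6250000000) * (z - (17 / 8)) ^ 3 * ((9 / 4) - z) ^ 6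
      + (22467483218173787449 / 31250000000) * (z - (17 / 8)) ^ 4 * ((9 / 4) - z) ^ 5
      + (12902144894153729993 / 15625000000) * (z - (17 / 8)) ^ 5 * ((9 / 4) - z) ^ 4
      + (2429596852303177707 / 3906250000) * (z - (17 / 8)) ^ 6 * ((9 / 4) - z) ^ 3
      + (23175721729819327 / 78125000) * (z - (17 / 8)) ^ 7 * ((9 / 4) - z) ^ 2
      + (317880403842002127 / 3906250000) * (z - (17 / 8)) ^ 8 * ((9 / 4) - z) ^ 1
      + (3824676469118939 / 390625000) * (z - (17 / 8)) ^ 9 := by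
    unfold g2
    ring
  rw [key]
  positivity

theorem g2_nonneg_7 (z : ℝ) (h1 : (9 / 4) ≤ z) (h2 : z ≤ (5 / 2)) : 0 ≤ g2 z := by
  have hu : 0 ≤ z - (9 / 4) := by linarith
  have hv : 0 ≤ (5 / 2) - z := by linarith
  have key : g2 z =
      (3824676469118939 / 200000000000) * ((5 / 2) - z) ^ 9
      + (99225459744527319 / 500000000000) * (z - (9 / 4)) ^ 1 * ((5 / 2) - z) ^ 8
      + (55276147546660177 / 62500000000) * (z - (9 / 4)) ^ 2 * ((5 / 2) - z) ^ 7
      + (69268675469753379 / 31250000000) * (z - (9 / 4)) ^ 3 * ((5 / 2) - z) ^ 6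
      + (107266460190505829 / 31250000000) * (z - (9 / 4)) ^ 4 * ((5 / 2) - z) ^ 5
      + (52978351339704313 / 15625000000) * (z - (9 / 4)) ^ 5 * ((5 / 2) - z) ^ 4
      + (8290953924045473 / 3906250000) * (z - (9 / 4)) ^ 6 * ((5 / 2) - z) ^ 3
      + (62874399584831 / 78125000) * (z - (9 / 4)) ^ 7 * ((5 / 2) - z) ^ 2
      + (648894008488231 / 3906250000) * (z - (9 / 4)) ^ 8 * ((5 / 2) - z) ^ 1
      + (5552475737091 / 390625000) * (z - (9 / 4)) ^ 9 := by
    unfold g2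
    ring
  rw [key]
  positivity

theorem g2_nonneg_8 (z : ℝ) (h1 : (5 / 2) ≤ z) (h2 : z ≤ (21 / 8)) : 0 ≤ g2 z := by
  have hu : 0 ≤ z - (5 / 2) := by linarith
  have hv : 0 ≤ (21 / 8) - z := by linarith
  have key : g2 z =
      (355358447173824 / 48828125) * ((21 / 8) - z) ^ 9
      + (13604391048421424 / 244140625) * (z - (5 / 2)) ^ 1 * ((21 / 8) - z) ^ 8
      + (44482281309590768 / 244140625) * (z - (5 / 2)) ^ 2 * ((21 / 8) - z) ^ 7
      + (16108820174573396 / 48828125) * (z - (5 / 2)) ^ 3 * ((21 / 8) - z) ^ 6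
      + (174913704688250809 / 488281250) * (z - (5 / 2)) ^ 4 * ((21 / 8) - z) ^ 5
      + (461000829531651601 / 1953125000) * (z - (5 / 2)) ^ 5 * ((21 / 8) - z) ^ 4
      + (360537570509948907 / 3906250000) * (z - (5 / 2)) ^ 6 * ((21 / 8) - z) ^ 3
      + (347317475920447601 / 15625000000) * (z - (5 / 2)) ^ 7 * ((21 / 8) - z) ^ 2
      + (1230507795713566359 / 250000000000) * (z - (5 / 2)) ^ 8 * ((21 / 8) - z) ^ 1
      + (1027115721349031027 / 1000000000000) * (z - (5 / 2)) ^ 9 := by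
    unfold g2
    ring
  rw [key]
  positivity

theorem g2_nonneg_9 (z : ℝ) (h1 : (21 / 8) ≤ z) (h2 : z ≤ (11 / 4)) : 0 ≤ g2 z := by
  have hu : 0 ≤ z - (21 / 8) := by linarith
  have hv : 0 ≤ (11 / 4) - z := by linarith
  have key : g2 z =
      (1027115721349031027 / 1000000000000) * ((11 / 4) - z) ^ 9
      + (271321036028565861 / 20000000000) * (z - (21 / 8)) ^ 1 * ((11 / 4) - z) ^ 8
      + (5711280212968804211 / 62500000000) * (z - (21 / 8)) ^ 2 * ((11 / 4) - z) ^ 7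
      + (11182909770032664113 / 31250000000) * (z - (21 / 8)) ^ 3 * ((11 / 4) - z) ^ 6
      + (26913596343215766109 / 31250000000) * (z - (21 / 8)) ^ 4 * ((11 / 4) - z) ^ 5
      + (20575448892885002363 / 15625000000) * (z - (21 / 8)) ^ 5 * ((11 / 4) - z) ^ 4
      + (5027942092070580519 / 3906250000) * (z - (21 / 8)) ^ 6 * ((11 / 4) - z) ^ 3
      + (1525701172156019173 / 1953125000) * (z - (21 / 8)) ^ 7 * ((11 / 4) - z) ^ 2
      + (209951294265520303 / 781250000) * (z - (21 / 8)) ^ 8 * ((11 / 4) - z) ^ 1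
      + (3134892245594653 / 78125000) * (z - (21 / 8)) ^ 9 := by
    unfold g2
    ring
  rw [key]
  positivity

theorem g2_nonneg_10 (z : ℝ) (h1 : (11 / 4) ≤ z) (h2 : z ≤ 3) : 0 ≤ g2 z := by
  have hu : 0 ≤ z - (11 / 4) := by linarith
  have hv : 0 ≤ 3 - z := by linarith
  have key : g2 z =
      (3134892245594653 / 40000000000) * (3 - z) ^ 9
      + (53314789722439463 / 50000000000) * (z - (11 / 4)) ^ 1 * (3 - z) ^ 8
      + (196914892689947801 / 31250000000) * (z - (11 / 4)) ^ 2 * (3 - z) ^ 7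
      + (332138900679445809 / 15625000000) * (z - (11 / 4)) ^ 3 * (3 - z) ^ 6
      + (88291260005431493 / 1953125000) * (z - (11 / 4)) ^ 4 * (3 - z) ^ 5
      + (61505910248714923 / 976562500) * (z - (11 / 4)) ^ 5 * (3 - z) ^ 4
      + (14063227024880141 / 244140625) * (z - (11 / 4)) ^ 6 * (3 - z) ^ 3
      + (8155932815062168 / 244140625) * (z - (11 / 4)) ^ 7 * (3 - z) ^ 2
      + (2725702405645824 / 244140625) * (z - (11 / 4)) ^ 8 * (3 - z) ^ 1
      + (400461604550656 / 244140625) * (z - (11 / 4)) ^ 9 := by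
    unfold g2
    ring
  rw [key]
  positivity

theorem g2_nonneg (z : ℝ) (h1 : -1 ≤ z) (h2 : z ≤ 3) : 0 ≤ g2 z := by
  by_cases cg2_nonneg_0 : z ≤ (-1 / 2)
  · exact g2_nonneg_0 z (by linarith) cg2_nonneg_0
  push Not at cg2_nonneg_0
  by_cases cg2_nonneg_1 : z ≤ 0
  · exact g2_nonneg_1 z (by linarith) cg2_nonneg_1
  push Not at cg2_nonneg_1
  by_cases cg2_nonneg_2 : z ≤ (1 / 2)
  · exact g2_nonneg_2 z (by linarith) cg2_nonneg_2
  push Not at cg2_nonneg_2
  by_cases cg2_nonneg_3 : z ≤ 1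
  · exact g2_nonneg_3 z (by linarith) cg2_nonneg_3
  push Not at cg2_nonneg_3
  by_cases cg2_nonneg_4 : z ≤ 2
  · exact g2_nonneg_4 z (by linarith) cg2_nonneg_4
  push Not at cg2_nonneg_4
  by_cases cg2_nonneg_5 : z ≤ (17 / 8)
  · exact g2_nonneg_5 z (by linarith) cg2_nonneg_5
  push Not at cg2_nonneg_5
  by_cases cg2_nonneg_6 : z ≤ (9 / 4)
  · exact g2_nonneg_6 z (by linarith) cg2_nonneg_6
  push Not at cg2_nonneg_6
  by_cases cg2_nonneg_7 : z ≤ (5 / 2)
  · exact g2_nonneg_7 z (by linarith) cg2_nonneg_7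
  push Not at cg2_nonneg_7
  by_cases cg2_nonneg_8 : z ≤ (21 / 8)
  · exact g2_nonneg_8 z (by linarith) cg2_nonneg_8
  push Not at cg2_nonneg_8
  by_cases cg2_nonneg_9 : z ≤ (11 / 4)
  · exact g2_nonneg_9 z (by linarith) cg2_nonneg_9
  push Not at cg2_nonneg_9
  exact g2_nonneg_10 z (by linarith) h2

theorem L2_le (Z : ℝ) (h0 : 0 < Z) (h4 : Z ≤ 4) : L2 (Z - 1) * Z ^ 2 ≤ 1 := by
  have h := L2_eq (Z - 1)
  have hg := g2_nonneg (Z - 1) (by linarith) (by linarith)
  have hz : 0 ≤ (Z - 1) ^ 4 := by positivity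
  have e : (1 : ℝ) + (Z - 1) = Z := by ring
  rw [e] at h
  nlinarith [mul_nonneg hz hg]

noncomputable def L3 (z : ℝ) : ℝ :=
  1 + (-3) * z + (5934353468467 / 1000000000000) * z ^ 2 + (-35987413499 / 3906250000) * z ^ 3 + (2693804307191 / 250000000000) * z ^ 4 + (-8772053008753 / 1000000000000) * z ^ 5 + (187746960323 / 40000000000) * z ^ 6 + (-1567298612951 / 1000000000000) * z ^ 7 + (147878571443 / 500000000000) * z ^ 8 + (-21374806241 / 1000000000000) * z ^ 9 + (-381986373 / 200000000000) * z ^ 10 + (345468459 / 1000000000000) * z ^ 11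

noncomputable def g3 (z : ℝ) : ℝ :=
  (65646531533 / 1000000000000) + (-590282549657 / 1000000000000) * z + (2060055933067 / 1000000000000) * z ^ 2 + (-924809289387 / 500000000000) * z ^ 3 + (-372597203091 / 250000000000) * z ^ 4 + (3027218386221 / 1000000000000) * z ^ 5 + (-180566063901 / 200000000000) * z ^ 6 + (-857674791639 / 1000000000000) * z ^ 7 + (746061534881 / 1000000000000) * z ^ 8 + (-226248397027 / 1000000000000) * z ^ 9 + (26068196459 / 1000000000000) * z ^ 10 + (109190811 / 125000000000) * z ^ 11 + (-345468459 / 1000000000000) * z ^ 12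

theorem L3_eq (z : ℝ) : 1 - L3 z * (1 + z) ^ 3 = z ^ 2 * g3 z := by
  unfold L3 g3
  ring

theorem g3_nonneg_0 (z : ℝ) (h1 : (-1) ≤ z) (h2 : z ≤ 0) : 0 ≤ g3 z := by
  have hu : 0 ≤ z - (-1) := by linarith
  have hv : 0 ≤ 0 - z := by linarith
  have key : g3 z =
      1 * (0 - z) ^ 12
      + 14 * (z - (-1)) ^ 1 * (0 - z) ^ 11
      + 91 * (z - (-1)) ^ 2 * (0 - z) ^ 10
      + (318729749268443 / 1000000000000) * (z - (-1)) ^ 3 * (0 - z) ^ 9
      + (26966563267301 / 40000000000) * (z - (-1)) ^ 4 * (0 - z) ^ 8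
      + (462647980122831 / 500000000000) * (z - (-1)) ^ 5 * (0 - z) ^ 7
      + (214380848467467 / 250000000000) * (z - (-1)) ^ 6 * (0 - z) ^ 6
      + (545627946279717 / 1000000000000) * (z - (-1)) ^ 7 * (0 - z) ^ 5
      + (237750349186857 / 1000000000000) * (z - (-1)) ^ 8 * (0 - z) ^ 4
      + (69357955077839 / 1000000000000) * (z - (-1)) ^ 9 * (0 - z) ^ 3
      + (1610729382559 / 125000000000) * (z - (-1)) ^ 10 * (0 - z) ^ 2
      + (1378040928053 / 1000000000000) * (z - (-1)) ^ 11 * (0 - z) ^ 1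
      + (65646531533 / 1000000000000) * (z - (-1)) ^ 12 := by
    unfold g3
    ring
  rw [key]
  positivity

theorem g3_nonneg_1 (z : ℝ) (h1 : 0 ≤ z) (h2 : z ≤ (1 / 2)) : 0 ≤ g3 z := by
  have hu : 0 ≤ z - 0 := by linarith
  have hv : 0 ≤ (1 / 2) - z := by linarith
  have key : g3 z =
      (65646531533 / 244140625) * ((1 / 2) - z) ^ 12
      + (197046841427 / 97656250) * (z - 0) ^ 1 * ((1 / 2) - z) ^ 11
      + (256180966613 / 39062500) * (z - 0) ^ 2 * ((1 / 2) - z) ^ 10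
      + (12513617328053 / 976562500) * (z - 0) ^ 3 * ((1 / 2) - z) ^ 9
      + (19193527228971 / 976562500) * (z - 0) ^ 4 * ((1 / 2) - z) ^ 8
      + (237543450772653 / 7812500000) * (z - 0) ^ 5 * ((1 / 2) - z) ^ 7
      + (708735004878213 / 15625000000) * (z - 0) ^ 6 * ((1 / 2) - z) ^ 6
      + (1659868859752929 / 31250000000) * (z - 0) ^ 7 * ((1 / 2) - z) ^ 5
      + (2731068381896183 / 62500000000) * (z - 0) ^ 8 * ((1 / 2) - z) ^ 4
      + (3011248012408669 / 125000000000) * (z - 0) ^ 9 * ((1 / 2) - z) ^ 3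
      + (423579065029949 / 50000000000) * (z - 0) ^ 10 * ((1 / 2) - z) ^ 2
      + (53730882161293 / 31250000000) * (z - 0) ^ 11 * ((1 / 2) - z) ^ 1
      + (153432450032521 / 1000000000000) * (z - 0) ^ 12 := by
    unfold g3
    ring
  rw [key]
  positivity

theorem g3_nonneg_2 (z : ℝ) (h1 : (1 / 2) ≤ z) (h2 : z ≤ 1) : 0 ≤ g3 z := by
  have hu : 0 ≤ z - (1 / 2) := by linarith
  have hv : 0 ≤ 1 - z := by linarith
  have key : g3 z =
      (153432450032521 / 1000000000000) * (1 - z) ^ 12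
      + (245373821452391 / 125000000000) * (z - (1 / 2)) ^ 1 * (1 - z) ^ 11
      + (2787801766908563 / 250000000000) * (z - (1 / 2)) ^ 2 * (1 - z) ^ 10
      + (4639667944305561 / 125000000000) * (z - (1 / 2)) ^ 3 * (1 - z) ^ 9
      + (2517329881120531 / 31250000000) * (z - (1 / 2)) ^ 4 * (1 - z) ^ 8
      + (3750631380803443 / 31250000000) * (z - (1 / 2)) ^ 5 * (1 - z) ^ 7
      + (491413953147659 / 3906250000) * (z - (1 / 2)) ^ 6 * (1 - z) ^ 6
      + (364820886796793 / 3906250000) * (z - (1 / 2)) ^ 7 * (1 - z) ^ 5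
      + (2377903025389 / 48828125) * (z - (1 / 2)) ^ 8 * (1 - z) ^ 4
      + (33970162661197 / 1953125000) * (z - (1 / 2)) ^ 9 * (1 - z) ^ 3
      + (1976631327789 / 488281250) * (z - (1 / 2)) ^ 10 * (1 - z) ^ 2
      + (27163794582 / 48828125) * (z - (1 / 2)) ^ 11 * (1 - z) ^ 1
      + (8535191224 / 244140625) * (z - (1 / 2)) ^ 12 := by
    unfold g3
    ring
  rw [key]
  positivity

theorem g3_nonneg_3 (z : ℝ) (h1 : 1 ≤ z) (h2 : z ≤ 2) : 0 ≤ g3 z := by
  have hu : 0 ≤ z - 1 := by linarith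
  have hv : 0 ≤ 2 - z := by linarith
  have key : g3 z =
      (1066898903 / 125000000000) * (2 - z) ^ 12
      + (8907234561 / 250000000000) * (z - 1) ^ 1 * (2 - z) ^ 11
      + (29557015287 / 500000000000) * (z - 1) ^ 2 * (2 - z) ^ 10
      + (865969695803 / 1000000000000) * (z - 1) ^ 3 * (2 - z) ^ 9
      + (6180669186071 / 1000000000000) * (z - 1) ^ 4 * (2 - z) ^ 8
      + (1993680743573 / 100000000000) * (z - 1) ^ 5 * (2 - z) ^ 7
      + (17968728523969 / 500000000000) * (z - 1) ^ 6 * (2 - z) ^ 6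
      + (39261828062453 / 1000000000000) * (z - 1) ^ 7 * (2 - z) ^ 5
      + (26475586819661 / 1000000000000) * (z - 1) ^ 8 * (2 - z) ^ 4
      + (10720092726171 / 1000000000000) * (z - 1) ^ 9 * (2 - z) ^ 3
      + (600330957899 / 250000000000) * (z - 1) ^ 10 * (2 - z) ^ 2
      + (252665099641 / 1000000000000) * (z - 1) ^ 11 * (2 - z) ^ 1
      + (9960382519 / 1000000000000) * (z - 1) ^ 12 := by
    unfold g3
    ring
  rw [key]
  positivity

theorem g3_nonneg_4 (z : ℝ) (h1 : 2 ≤ z) (h2 : z ≤ (17 / 8)) : 0 ≤ g3 z := by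
  have hu : 0 ≤ z - 2 := by linarith
  have hv : 0 ≤ (17 / 8) - z := by linarith
  have key : g3 z =
      (167107488963887104 / 244140625) * ((17 / 8) - z) ^ 12
      + (1726073981970153472 / 244140625) * (z - 2) ^ 1 * ((17 / 8) - z) ^ 11
      + (8030960723875856384 / 244140625) * (z - 2) ^ 2 * ((17 / 8) - z) ^ 10
      + (22191216447128666112 / 244140625) * (z - 2) ^ 3 * ((17 / 8) - z) ^ 9
      + (323336157164118016 / 1953125) * (z - 2) ^ 4 * ((17 / 8) - z) ^ 8
      + (10182400871256842752 / 48828125) * (z - 2) ^ 5 * ((17 / 8) - z) ^ 7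
      + (45306685571208908096 / 244140625) * (z - 2) ^ 6 * ((17 / 8) - z) ^ 6
      + (1146115952608561928 / 9765625) * (z - 2) ^ 7 * ((17 / 8) - z) ^ 5
      + (12870714911970599807 / 244140625) * (z - 2) ^ 8 * ((17 / 8) - z) ^ 4
      + (33080611495853769433 / 1953125000) * (z - 2) ^ 9 * ((17 / 8) - z) ^ 3
      + (2510643427652418483 / 625000000) * (z - 2) ^ 10 * ((17 / 8) - z) ^ 2
      + (2226583252268199 / 3125000) * (z - 2) ^ 11 * ((17 / 8) - z) ^ 1
      + (4722110942790829 / 64000000) * (z - 2) ^ 12 := by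
    unfold g3
    ring
  rw [key]
  positivity

theorem g3_nonneg_5 (z : ℝ) (h1 : (17 / 8) ≤ z) (h2 : z ≤ (9 / 4)) : 0 ≤ g3 z := by
  have hu : 0 ≤ z - (17 / 8) := by linarith
  have hv : 0 ≤ (9 / 4) - z := by linarith
  have key : g3 z =
      (4722110942790829 / 64000000) * ((9 / 4) - z) ^ 12
      + (211656992564147439 / 200000000) * (z - (17 / 8)) ^ 1 * ((9 / 4) - z) ^ 11
      + (39102955136439591189 / 5000000000) * (z - (17 / 8)) ^ 2 * ((9 / 4) - z) ^ 10
      + (1140934580189589043947 / 31250000000) * (z - (17 / 8)) ^ 3 * ((9 / 4) - z) ^ 9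
      + (7172831456863599498059 / 62500000000) * (z - (17 / 8)) ^ 4 * ((9 / 4) - z) ^ 8
      + (982166991189124290063 / 3906250000) * (z - (17 / 8)) ^ 5 * ((9 / 4) - z) ^ 7
      + (1530759569275363513803 / 3906250000) * (z - (17 / 8)) ^ 6 * ((9 / 4) - z) ^ 6
      + (427756924603563539223 / 976562500) * (z - (17 / 8)) ^ 7 * ((9 / 4) - z) ^ 5
      + (1364372219662792919163 / 3906250000) * (z - (17 / 8)) ^ 8 * ((9 / 4) - z) ^ 4
      + (94858395073298863907 / 488281250) * (z - (17 / 8)) ^ 9 * ((9 / 4) - z) ^ 3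
      + (35017431641335990701 / 488281250) * (z - (17 / 8)) ^ 10 * ((9 / 4) - z) ^ 2
      + (3859865405411673166 / 244140625) * (z - (17 / 8)) ^ 11 * ((9 / 4) - z) ^ 1
      + (384989889605380229 / 244140625) * (z - (17 / 8)) ^ 12 := by
    unfold g3
    ring
  rw [key]
  positivity

theorem g3_nonneg_6 (z : ℝ) (h1 : (9 / 4) ≤ z) (h2 : z ≤ (5 / 2)) : 0 ≤ g3 z := by
  have hu : 0 ≤ z - (9 / 4) := by linarith
  have hv : 0 ≤ (5 / 2) - z := by linarith
  have key : g3 z =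
      (384989889605380229 / 1000000000000) * ((5 / 2) - z) ^ 12
      + (767488151871292739 / 125000000000) * (z - (9 / 4)) ^ 1 * ((5 / 2) - z) ^ 11
      + (5495967618887176059 / 125000000000) * (z - (9 / 4)) ^ 2 * ((5 / 2) - z) ^ 10
      + (5849547221417691011 / 31250000000) * (z - (9 / 4)) ^ 3 * ((5 / 2) - z) ^ 9
      + (33034627671148778607 / 62500000000) * (z - (9 / 4)) ^ 4 * ((5 / 2) - z) ^ 8
      + (163213205707097463 / 156250000) * (z - (9 / 4)) ^ 5 * ((5 / 2) - z) ^ 7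
      + (5795660557584401577 / 3906250000) * (z - (9 / 4)) ^ 6 * ((5 / 2) - z) ^ 6
      + (1492262514231203499 / 976562500) * (z - (9 / 4)) ^ 7 * ((5 / 2) - z) ^ 5
      + (885757795143524407 / 781250000) * (z - (9 / 4)) ^ 8 * ((5 / 2) - z) ^ 4
      + (288828865537724607 / 488281250) * (z - (9 / 4)) ^ 9 * ((5 / 2) - z) ^ 3
      + (100651097374767651 / 488281250) * (z - (9 / 4)) ^ 10 * ((5 / 2) - z) ^ 2
      + (10523011951299534 / 244140625) * (z - (9 / 4)) ^ 11 * ((5 / 2) - z) ^ 1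
      + (998832872076313 / 244140625) * (z - (9 / 4)) ^ 12 := by
    unfold g3
    ring
  rw [key]
  positivity

theorem g3_nonneg_7 (z : ℝ) (h1 : (5 / 2) ≤ z) (h2 : z ≤ 3) : 0 ≤ g3 z := by
  have hu : 0 ≤ z - (5 / 2) := by linarith
  have hv : 0 ≤ 3 - z := by linarith
  have key : g3 z =
      (998832872076313 / 1000000000000) * (3 - z) ^ 12
      + (74559797460741 / 5000000000) * (z - (5 / 2)) ^ 1 * (3 - z) ^ 11
      + (5004506598854799 / 50000000000) * (z - (5 / 2)) ^ 2 * (3 - z) ^ 10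
      + (49879476085240149 / 125000000000) * (z - (5 / 2)) ^ 3 * (3 - z) ^ 9
      + (4104796449320639 / 3906250000) * (z - (5 / 2)) ^ 4 * (3 - z) ^ 8
      + (60028027088199867 / 31250000000) * (z - (5 / 2)) ^ 5 * (3 - z) ^ 7
      + (19446360168931149 / 7812500000) * (z - (5 / 2)) ^ 6 * (3 - z) ^ 6
      + (8938181444944503 / 3906250000) * (z - (5 / 2)) ^ 7 * (3 - z) ^ 5
      + (1429086112999047 / 976562500) * (z - (5 / 2)) ^ 8 * (3 - z) ^ 4
      + (1211953007844821 / 1953125000) * (z - (5 / 2)) ^ 9 * (3 - z) ^ 3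
      + (7671317258901 / 48828125) * (z - (5 / 2)) ^ 10 * (3 - z) ^ 2
      + (4395736593016 / 244140625) * (z - (5 / 2)) ^ 11 * (3 - z) ^ 1
      + (60299456 / 244140625) * (z - (5 / 2)) ^ 12 := by
    unfold g3
    ring
  rw [key]
  positivity

theorem g3_nonneg (z : ℝ) (h1 : -1 ≤ z) (h2 : z ≤ 3) : 0 ≤ g3 z := by
  by_cases cg3_nonneg_0 : z ≤ 0
  · exact g3_nonneg_0 z (by linarith) cg3_nonneg_0
  push Not at cg3_nonneg_0
  by_cases cg3_nonneg_1 : z ≤ (1 / 2)
  · exact g3_nonneg_1 z (by linarith) cg3_nonneg_1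
  push Not at cg3_nonneg_1
  by_cases cg3_nonneg_2 : z ≤ 1
  · exact g3_nonneg_2 z (by linarith) cg3_nonneg_2
  push Not at cg3_nonneg_2
  by_cases cg3_nonneg_3 : z ≤ 2
  · exact g3_nonneg_3 z (by linarith) cg3_nonneg_3
  push Not at cg3_nonneg_3
  by_cases cg3_nonneg_4 : z ≤ (17 / 8)
  · exact g3_nonneg_4 z (by linarith) cg3_nonneg_4
  push Not at cg3_nonneg_4
  by_cases cg3_nonneg_5 : z ≤ (9 / 4)
  · exact g3_nonneg_5 z (by linarith) cg3_nonneg_5
  push Not at cg3_nonneg_5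
  by_cases cg3_nonneg_6 : z ≤ (5 / 2)
  · exact g3_nonneg_6 z (by linarith) cg3_nonneg_6
  push Not at cg3_nonneg_6
  exact g3_nonneg_7 z (by linarith) h2

theorem L3_le (Z : ℝ) (h0 : 0 < Z) (h4 : Z ≤ 4) : L3 (Z - 1) * Z ^ 3 ≤ 1 := by
  have h := L3_eq (Z - 1)
  have hg := g3_nonneg (Z - 1) (by linarith) (by linarith)
  have hz : 0 ≤ (Z - 1) ^ 2 := by positivity
  have e : (1 : ℝ) + (Z - 1) = Z := by ring
  rw [e] at h
  nlinarith [mul_nonneg hz hg]

noncomputable def L4 (z : ℝ) : ℝ :=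
  1 + (-4) * z + (9542188921349 / 1000000000000) * z ^ 2 + (-15053406411607 / 1000000000000) * z ^ 3 + (273538711079 / 20000000000) * z ^ 4 + (-2788813326311 / 500000000000) * z ^ 5 + (-96757749103 / 1000000000000) * z ^ 6 + (135538575141 / 250000000000) * z ^ 7 + (60031704979 / 500000000000) * z ^ 8 + (-25870061967 / 200000000000) * z ^ 9 + (10349103301 / 500000000000) * z ^ 10

noncomputable def g4 (z : ℝ) : ℝ :=
  (457811078651 / 1000000000000) + (-3115349273789 / 1000000000000) * z + (133861142637 / 31250000000) * z ^ 2 + (1755391805267 / 250000000000) * z ^ 3 + (-898291223903 / 100000000000) * z ^ 4 + (-6343699192613 / 1000000000000) * z ^ 5 + (3462718469471 / 500000000000) * z ^ 6 + (2360828515653 / 1000000000000) * z ^ 7 + (-2295536880163 / 1000000000000) * z ^ 8 + (-164549453897 / 500000000000) * z ^ 9 + (27314858977 / 100000000000) * z ^ 10 + (46557483427 / 1000000000000) * z ^ 11 + (-10349103301 / 500000000000) * z ^ 12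

theorem L4_eq (z : ℝ) : 1 - L4 z * (1 + z) ^ 4 = z ^ 2 * g4 z := by
  unfold L4 g4
  ring

theorem g4_nonneg_0 (z : ℝ) (h1 : (-1) ≤ z) (h2 : z ≤ 0) : 0 ≤ g4 z := by
  have hu : 0 ≤ z - (-1) := by linarith
  have hv : 0 ≤ 0 - z := by linarith
  have key : g4 z =
      1 * (0 - z) ^ 12
      + 14 * (z - (-1)) ^ 1 * (0 - z) ^ 11
      + 91 * (z - (-1)) ^ 2 * (0 - z) ^ 10
      + 364 * (z - (-1)) ^ 3 * (0 - z) ^ 9
      + (14883103790371 / 15625000000) * (z - (-1)) ^ 4 * (0 - z) ^ 8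
      + (832991456964751 / 500000000000) * (z - (-1)) ^ 5 * (0 - z) ^ 7
      + (1971853821709363 / 1000000000000) * (z - (-1)) ^ 6 * (0 - z) ^ 6
      + (1586382403689967 / 1000000000000) * (z - (-1)) ^ 7 * (0 - z) ^ 5
      + (215308035569017 / 250000000000) * (z - (-1)) ^ 8 * (0 - z) ^ 4
      + (307876645784387 / 1000000000000) * (z - (-1)) ^ 9 * (0 - z) ^ 3
      + (68767929767029 / 1000000000000) * (z - (-1)) ^ 10 * (0 - z) ^ 2
      + (8609082217601 / 1000000000000) * (z - (-1)) ^ 11 * (0 - z) ^ 1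
      + (457811078651 / 1000000000000) * (z - (-1)) ^ 12 := by
    unfold g4
    ring
  rw [key]
  positivity

theorem g4_nonneg_1 (z : ℝ) (h1 : 0 ≤ z) (h2 : z ≤ (1 / 4)) : 0 ≤ g4 z := by
  have hu : 0 ≤ z - 0 := by linarith
  have hv : 0 ≤ (1 / 4) - z := by linarith
  have key : g4 z =
      (1875194178154496 / 244140625) * ((1 / 4) - z) ^ 12
      + (19312212481494016 / 244140625) * (z - 0) ^ 1 * ((1 / 4) - z) ^ 11
      + (89768112018719744 / 244140625) * (z - 0) ^ 2 * ((1 / 4) - z) ^ 10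
      + (248501533201164032 / 244140625) * (z - 0) ^ 3 * ((1 / 4) - z) ^ 9
      + (455098972632300448 / 244140625) * (z - 0) ^ 4 * ((1 / 4) - z) ^ 8
      + (579008323471432812 / 244140625) * (z - 0) ^ 5 * ((1 / 4) - z) ^ 7
      + (522681966834669618 / 244140625) * (z - 0) ^ 6 * ((1 / 4) - z) ^ 6
      + (1342970934970862213 / 976562500) * (z - 0) ^ 7 * ((1 / 4) - z) ^ 5
      + (2424734721338673569 / 3906250000) * (z - 0) ^ 8 * ((1 / 4) - z) ^ 4
      + (299002454166262563 / 1562500000) * (z - 0) ^ 9 * ((1 / 4) - z) ^ 3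
      + (48037376930295057 / 1250000000) * (z - 0) ^ 10 * ((1 / 4) - z) ^ 2
      + (9321214968220751 / 2000000000) * (z - 0) ^ 11 * ((1 / 4) - z) ^ 1
      + (227128279277217 / 800000000) * (z - 0) ^ 12 := by
    unfold g4
    ring
  rw [key]
  positivity

theorem g4_nonneg_2 (z : ℝ) (h1 : (1 / 4) ≤ z) (h2 : z ≤ (1 / 2)) : 0 ≤ g4 z := by
  have hu : 0 ≤ z - (1 / 4) := by linarith
  have hv : 0 ≤ (1 / 2) - z := by linarith
  have key : g4 z =
      (227128279277217 / 800000000) * ((1 / 2) - z) ^ 12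
      + (4306481788412269 / 2000000000) * (z - (1 / 4)) ^ 1 * ((1 / 2) - z) ^ 11
      + (54244345276446973 / 5000000000) * (z - (1 / 4)) ^ 2 * ((1 / 2) - z) ^ 10
      + (644812851548845771 / 12500000000) * (z - (1 / 4)) ^ 3 * ((1 / 2) - z) ^ 9
      + (1485735784754660593 / 7812500000) * (z - (1 / 4)) ^ 4 * ((1 / 2) - z) ^ 8
      + (3754428586690171269 / 7812500000) * (z - (1 / 4)) ^ 5 * ((1 / 2) - z) ^ 7
      + (3228371103617085973 / 3906250000) * (z - (1 / 4)) ^ 6 * ((1 / 2) - z) ^ 6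
      + (1915794469587930319 / 1953125000) * (z - (1 / 4)) ^ 7 * ((1 / 2) - z) ^ 5
      + (1575430850475464729 / 1953125000) * (z - (1 / 4)) ^ 8 * ((1 / 2) - z) ^ 4
      + (88415286438800777 / 195312500) * (z - (1 / 4)) ^ 9 * ((1 / 2) - z) ^ 3
      + (80975067416439121 / 488281250) * (z - (1 / 4)) ^ 10 * ((1 / 2) - z) ^ 2
      + (8743108609642363 / 244140625) * (z - (1 / 4)) ^ 11 * ((1 / 2) - z) ^ 1
      + (845322281072068 / 244140625) * (z - (1 / 4)) ^ 12 := by
    unfold g4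
    ring
  rw [key]
  positivity

theorem g4_nonneg_3 (z : ℝ) (h1 : (1 / 2) ≤ z) (h2 : z ≤ 1) : 0 ≤ g4 z := by
  have hu : 0 ≤ z - (1 / 2) := by linarith
  have hv : 0 ≤ 1 - z := by linarith
  have key : g4 z =
      (211330570268017 / 250000000000) * (1 - z) ^ 12
      + (6472692449654861 / 500000000000) * (z - (1 / 2)) ^ 1 * (1 - z) ^ 11
      + (21756600388322669 / 250000000000) * (z - (1 / 2)) ^ 2 * (1 - z) ^ 10
      + (8497200165512101 / 25000000000) * (z - (1 / 2)) ^ 3 * (1 - z) ^ 9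
      + (13447470585336247 / 15625000000) * (z - (1 / 2)) ^ 4 * (1 - z) ^ 8
      + (46599074868961417 / 31250000000) * (z - (1 / 2)) ^ 5 * (1 - z) ^ 7
      + (28359993512115031 / 15625000000) * (z - (1 / 2)) ^ 6 * (1 - z) ^ 6
      + (6112179447345213 / 3906250000) * (z - (1 / 2)) ^ 7 * (1 - z) ^ 5
      + (231487404522779 / 244140625) * (z - (1 / 2)) ^ 8 * (1 - z) ^ 4
      + (96103407032972 / 244140625) * (z - (1 / 2)) ^ 9 * (1 - z) ^ 3
      + (25919596384316 / 244140625) * (z - (1 / 2)) ^ 10 * (1 - z) ^ 2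
      + (4072442119376 / 244140625) * (z - (1 / 2)) ^ 11 * (1 - z) ^ 1
      + (281611691904 / 244140625) * (z - (1 / 2)) ^ 12 := by
    unfold g4
    ring
  rw [key]
  positivity

theorem g4_nonneg_4 (z : ℝ) (h1 : 1 ≤ z) (h2 : z ≤ (5 / 4)) : 0 ≤ g4 z := by
  have hu : 0 ≤ z - 1 := by linarith
  have hv : 0 ≤ (5 / 4) - z := by linarith
  have key : g4 z =
      (1153481490038784 / 244140625) * ((5 / 4) - z) ^ 12
      + (12422305360216064 / 244140625) * (z - 1) ^ 1 * ((5 / 4) - z) ^ 11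
      + (60217703870345216 / 244140625) * (z - 1) ^ 2 * ((5 / 4) - z) ^ 10
      + (173260331681355776 / 244140625) * (z - 1) ^ 3 * ((5 / 4) - z) ^ 9
      + (65670302481987328 / 48828125) * (z - 1) ^ 4 * ((5 / 4) - z) ^ 8
      + (429716073695267352 / 244140625) * (z - 1) ^ 5 * ((5 / 4) - z) ^ 7
      + (395599673987964499 / 244140625) * (z - 1) ^ 6 * ((5 / 4) - z) ^ 6
      + (1023032051596214123 / 976562500) * (z - 1) ^ 7 * ((5 / 4) - z) ^ 5
      + (909786840876218561 / 1953125000) * (z - 1) ^ 8 * ((5 / 4) - z) ^ 4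
      + (2129346547643518207 / 15625000000) * (z - 1) ^ 9 * ((5 / 4) - z) ^ 3
      + (1516925086957167851 / 62500000000) * (z - 1) ^ 10 * ((5 / 4) - z) ^ 2
      + (582976918078769587 / 250000000000) * (z - 1) ^ 11 * ((5 / 4) - z) ^ 1
      + (52964035772055593 / 500000000000) * (z - 1) ^ 12 := by
    unfold g4
    ring
  rw [key]
  positivity

theorem g4_nonneg_5 (z : ℝ) (h1 : (5 / 4) ≤ z) (h2 : z ≤ (3 / 2)) : 0 ≤ g4 z := by
  have hu : 0 ≤ z - (5 / 4) := by linarith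
  have hv : 0 ≤ (3 / 2) - z := by linarith
  have key : g4 z =
      (52964035772055593 / 500000000000) * ((3 / 2) - z) ^ 12
      + (52591511185897529 / 250000000000) * (z - (5 / 4)) ^ 1 * ((3 / 2) - z) ^ 11
      + (116730436003539383 / 125000000000) * (z - (5 / 4)) ^ 2 * ((3 / 2) - z) ^ 10
      + (1409472924089187367 / 62500000000) * (z - (5 / 4)) ^ 3 * ((3 / 2) - z) ^ 9
      + (2224688894584242397 / 15625000000) * (z - (5 / 4)) ^ 4 * ((3 / 2) - z) ^ 8
      + (3542727090572139109 / 7812500000) * (z - (5 / 4)) ^ 5 * ((3 / 2) - z) ^ 7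
      + (3457816958080498063 / 3906250000) * (z - (5 / 4)) ^ 6 * ((3 / 2) - z) ^ 6
      + (2230842154242346271 / 1953125000) * (z - (5 / 4)) ^ 7 * ((3 / 2) - z) ^ 5
      + (1953373856216819837 / 1953125000) * (z - (5 / 4)) ^ 8 * ((3 / 2) - z) ^ 4
      + (115392882202477897 / 195312500) * (z - (5 / 4)) ^ 9 * ((3 / 2) - z) ^ 3
      + (4417678181654387 / 19531250) * (z - (5 / 4)) ^ 10 * ((3 / 2) - z) ^ 2
      + (99189159084487 / 1953125) * (z - (5 / 4)) ^ 11 * ((3 / 2) - z) ^ 1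
      + (1986347788064 / 390625) * (z - (5 / 4)) ^ 12 := by
    unfold g4
    ring
  rw [key]
  positivity

theorem g4_nonneg_6 (z : ℝ) (h1 : (3 / 2) ≤ z) (h2 : z ≤ 2) : 0 ≤ g4 z := by
  have hu : 0 ≤ z - (3 / 2) := by linarith
  have hv : 0 ≤ 2 - z := by linarith
  have key : g4 z =
      (62073368377 / 50000000) * (2 - z) ^ 12
      + (79582141841273 / 4000000000) * (z - (3 / 2)) ^ 1 * (2 - z) ^ 11
      + (175006203693077 / 1250000000) * (z - (3 / 2)) ^ 2 * (2 - z) ^ 10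
      + (7153077211739191 / 12500000000) * (z - (3 / 2)) ^ 3 * (2 - z) ^ 9
      + (94585054214677999 / 62500000000) * (z - (3 / 2)) ^ 4 * (2 - z) ^ 8
      + (85180989956691791 / 31250000000) * (z - (3 / 2)) ^ 5 * (2 - z) ^ 7
      + (26723398553273417 / 7812500000) * (z - (3 / 2)) ^ 6 * (2 - z) ^ 6
      + (23439664591450489 / 7812500000) * (z - (3 / 2)) ^ 7 * (2 - z) ^ 5
      + (885158298589121 / 488281250) * (z - (3 / 2)) ^ 8 * (2 - z) ^ 4
      + (177752850922189 / 244140625) * (z - (3 / 2)) ^ 9 * (2 - z) ^ 3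
      + (88728900455591 / 488281250) * (z - (3 / 2)) ^ 10 * (2 - z) ^ 2
      + (12125668535509 / 488281250) * (z - (3 / 2)) ^ 11 * (2 - z) ^ 1
      + (340866293857 / 244140625) * (z - (3 / 2)) ^ 12 := by
    unfold g4
    ring
  rw [key]
  positivity

theorem g4_nonneg_7 (z : ℝ) (h1 : 2 ≤ z) (h2 : z ≤ (17 / 8)) : 0 ≤ g4 z := by
  have hu : 0 ≤ z - 2 := by linarith
  have hv : 0 ≤ (17 / 8) - z := by linarith
  have key : g4 z =
      (5718787439158362112 / 244140625) * ((17 / 8) - z) ^ 12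
      + (60352441566795661312 / 244140625) * (z - 2) ^ 1 * ((17 / 8) - z) ^ 11
      + (286615614642295144448 / 244140625) * (z - 2) ^ 2 * ((17 / 8) - z) ^ 10
      + (806851870293399568384 / 244140625) * (z - 2) ^ 3 * ((17 / 8) - z) ^ 9
      + (1491813023982472757248 / 244140625) * (z - 2) ^ 4 * ((17 / 8) - z) ^ 8
      + (1894717417258538880512 / 244140625) * (z - 2) ^ 5 * ((17 / 8) - z) ^ 7
      + (1677200092238381760256 / 244140625) * (z - 2) ^ 6 * ((17 / 8) - z) ^ 6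
      + (1025914228565756634792 / 244140625) * (z - 2) ^ 7 * ((17 / 8) - z) ^ 5
      + (419330139747879624449 / 244140625) * (z - 2) ^ 8 * ((17 / 8) - z) ^ 4
      + (17103501594091125341 / 39062500) * (z - 2) ^ 9 * ((17 / 8) - z) ^ 3
      + (385556382391155179 / 6250000) * (z - 2) ^ 10 * ((17 / 8) - z) ^ 2
      + (36080318701904923 / 8000000) * (z - 2) ^ 11 * ((17 / 8) - z) ^ 1
      + (500550100442727 / 1280000) * (z - 2) ^ 12 := by
    unfold g4
    ring
  rw [key]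
  positivity

theorem g4_nonneg_8 (z : ℝ) (h1 : (17 / 8) ≤ z) (h2 : z ≤ (9 / 4)) : 0 ≤ g4 z := by
  have hu : 0 ≤ z - (17 / 8) := by linarith
  have hv : 0 ≤ (9 / 4) - z := by linarith
  have key : g4 z =
      (500550100442727 / 1280000) * ((9 / 4) - z) ^ 12
      + (39002196364504127 / 8000000) * (z - (17 / 8)) ^ 1 * ((9 / 4) - z) ^ 11
      + (3285330148432936707 / 50000000) * (z - (17 / 8)) ^ 2 * ((9 / 4) - z) ^ 10
      + (614973008311660008213 / 1250000000) * (z - (17 / 8)) ^ 3 * ((9 / 4) - z) ^ 9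
      + (65131490355951704915947 / 31250000000) * (z - (17 / 8)) ^ 4 * ((9 / 4) - z) ^ 8
      + (21672144775954516988747 / 3906250000) * (z - (17 / 8)) ^ 5 * ((9 / 4) - z) ^ 7
      + (4832746364210548417887 / 488281250) * (z - (17 / 8)) ^ 6 * ((9 / 4) - z) ^ 6
      + (11930747375606119999461 / 976562500) * (z - (17 / 8)) ^ 7 * ((9 / 4) - z) ^ 5
      + (20541987877785770301389 / 1953125000) * (z - (17 / 8)) ^ 8 * ((9 / 4) - z) ^ 4
      + (3038017862997348935011 / 488281250) * (z - (17 / 8)) ^ 9 * ((9 / 4) - z) ^ 3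
      + (118060095453397924282 / 48828125) * (z - (17 / 8)) ^ 10 * ((9 / 4) - z) ^ 2
      + (27197987948193065162 / 48828125) * (z - (17 / 8)) ^ 11 * ((9 / 4) - z) ^ 1
      + (14097895927067121794 / 244140625) * (z - (17 / 8)) ^ 12 := by
    unfold g4
    ring
  rw [key]
  positivity

theorem g4_nonneg_9 (z : ℝ) (h1 : (9 / 4) ≤ z) (h2 : z ≤ (5 / 2)) : 0 ≤ g4 z := by
  have hu : 0 ≤ z - (9 / 4) := by linarith
  have hv : 0 ≤ (5 / 2) - z := by linarith
  have key : g4 z =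
      (7048947963533560897 / 500000000000) * ((5 / 2) - z) ^ 12
      + (58886093473121433241 / 250000000000) * (z - (9 / 4)) ^ 1 * ((5 / 2) - z) ^ 11
      + (220002008355264665977 / 125000000000) * (z - (9 / 4)) ^ 2 * ((5 / 2) - z) ^ 10
      + (487215455204524358351 / 62500000000) * (z - (9 / 4)) ^ 3 * ((5 / 2) - z) ^ 9
      + (17851245178231435679 / 781250000) * (z - (9 / 4)) ^ 4 * ((5 / 2) - z) ^ 8
      + (365585578532132518389 / 7812500000) * (z - (9 / 4)) ^ 5 * ((5 / 2) - z) ^ 7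
      + (268686679926720159609 / 3906250000) * (z - (9 / 4)) ^ 6 * ((5 / 2) - z) ^ 6
      + (143022265368122914711 / 1953125000) * (z - (9 / 4)) ^ 7 * ((5 / 2) - z) ^ 5
      + (109582245409824004561 / 1953125000) * (z - (9 / 4)) ^ 8 * ((5 / 2) - z) ^ 4
      + (29493333214090492077 / 976562500) * (z - (9 / 4)) ^ 9 * ((5 / 2) - z) ^ 3
      + (5297498018756679237 / 488281250) * (z - (9 / 4)) ^ 10 * ((5 / 2) - z) ^ 2
      + (570460422616100563 / 244140625) * (z - (9 / 4)) ^ 11 * ((5 / 2) - z) ^ 1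
      + (55722957912825036 / 244140625) * (z - (9 / 4)) ^ 12 := by
    unfold g4
    ring
  rw [key]
  positivity

theorem g4_nonneg_10 (z : ℝ) (h1 : (5 / 2) ≤ z) (h2 : z ≤ 3) : 0 ≤ g4 z := by
  have hu : 0 ≤ z - (5 / 2) := by linarith
  have hv : 0 ≤ 3 - z := by linarith
  have key : g4 z =
      (13930739478206259 / 250000000000) * (3 - z) ^ 12
      + (86510563962950017 / 100000000000) * (z - (5 / 2)) ^ 1 * (3 - z) ^ 11
      + (60440451450687927 / 10000000000) * (z - (5 / 2)) ^ 2 * (3 - z) ^ 10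
      + (3137720788682615817 / 125000000000) * (z - (5 / 2)) ^ 3 * (3 - z) ^ 9
      + (2153360139279231907 / 31250000000) * (z - (5 / 2)) ^ 4 * (3 - z) ^ 8
      + (4105292250800693137 / 31250000000) * (z - (5 / 2)) ^ 5 * (3 - z) ^ 7
      + (2774893777072047201 / 15625000000) * (z - (5 / 2)) ^ 6 * (3 - z) ^ 6
      + (665372612797282221 / 3906250000) * (z - (5 / 2)) ^ 7 * (3 - z) ^ 5
      + (55493744967847001 / 488281250) * (z - (5 / 2)) ^ 8 * (3 - z) ^ 4
      + (2454210537314632 / 48828125) * (z - (5 / 2)) ^ 9 * (3 - z) ^ 3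
      + (3238708592580224 / 244140625) * (z - (5 / 2)) ^ 10 * (3 - z) ^ 2
      + (15465123256576 / 9765625) * (z - (5 / 2)) ^ 11 * (3 - z) ^ 1
      + (9490700288 / 244140625) * (z - (5 / 2)) ^ 12 := by
    unfold g4
    ring
  rw [key]
  positivity

theorem g4_nonneg (z : ℝ) (h1 : -1 ≤ z) (h2 : z ≤ 3) : 0 ≤ g4 z := by
  by_cases cg4_nonneg_0 : z ≤ 0
  · exact g4_nonneg_0 z (by linarith) cg4_nonneg_0
  push Not at cg4_nonneg_0
  by_cases cg4_nonneg_1 : z ≤ (1 / 4)
  · exact g4_nonneg_1 z (by linarith) cg4_nonneg_1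
  push Not at cg4_nonneg_1
  by_cases cg4_nonneg_2 : z ≤ (1 / 2)
  · exact g4_nonneg_2 z (by linarith) cg4_nonneg_2
  push Not at cg4_nonneg_2
  by_cases cg4_nonneg_3 : z ≤ 1
  · exact g4_nonneg_3 z (by linarith) cg4_nonneg_3
  push Not at cg4_nonneg_3
  by_cases cg4_nonneg_4 : z ≤ (5 / 4)
  · exact g4_nonneg_4 z (by linarith) cg4_nonneg_4
  push Not at cg4_nonneg_4
  by_cases cg4_nonneg_5 : z ≤ (3 / 2)
  · exact g4_nonneg_5 z (by linarith) cg4_nonneg_5
  push Not at cg4_nonneg_5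
  by_cases cg4_nonneg_6 : z ≤ 2
  · exact g4_nonneg_6 z (by linarith) cg4_nonneg_6
  push Not at cg4_nonneg_6
  by_cases cg4_nonneg_7 : z ≤ (17 / 8)
  · exact g4_nonneg_7 z (by linarith) cg4_nonneg_7
  push Not at cg4_nonneg_7
  by_cases cg4_nonneg_8 : z ≤ (9 / 4)
  · exact g4_nonneg_8 z (by linarith) cg4_nonneg_8
  push Not at cg4_nonneg_8
  by_cases cg4_nonneg_9 : z ≤ (5 / 2)
  · exact g4_nonneg_9 z (by linarith) cg4_nonneg_9
  push Not at cg4_nonneg_9
  exact g4_nonneg_10 z (by linarith) h2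

theorem L4_le (Z : ℝ) (h0 : 0 < Z) (h4 : Z ≤ 4) : L4 (Z - 1) * Z ^ 4 ≤ 1 := by
  have h := L4_eq (Z - 1)
  have hg := g4_nonneg (Z - 1) (by linarith) (by linarith)
  have hz : 0 ≤ (Z - 1) ^ 2 := by positivity
  have e : (1 : ℝ) + (Z - 1) = Z := by ring
  rw [e] at h
  nlinarith [mul_nonneg hz hg]

end Vale.Agent.P154.TT15
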