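import Vale.Agent.P154.TT.T15Data

/-! # P154 q = 4: packed coefficient check of the closure certificate `T15`, rows 41 to 49 -/

namespace Vale.Agent.P154

open Vale.Agent.Util.Polya

set_option maxRecDepth 100000

theorem checkT15_10 : check 167 16 15 (certE 15 0 1 0 1 LdT15 [XpsT15, XcT15] [XcT15, XpsT15]) 41 9 = true := by
  decide +kernel

end Vale.Agent.P154
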