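import Vale.Agent.P154.R4W.LinkTools5
import Vale.Agent.P154.TT.T15Data

/-! # P154 q = 4: the term lists of the certificate `T15` are the closed forms -/

namespace Vale.Agent.P154

open Vale.Agent.Util.Polya

set_option maxRecDepth 100000

def L1cT15 : List ℤ := [1000000000000, -1000000000000, 1000000000000, -1000000000000, 983516607383, -999599806208, 943652943905, -665830048686, 308652745943, -87311689421, 13606875487, -893513295]

def L2cT15 : List ℤ := [1000000000000, -2000000000000, 3000000000000, -4000000000000, 4870821259645, -5589163196464, 7676743145505, -11323485934915, 10597423332823, -5339268311623, 1342872734328, -132918056279]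

def L3cT15 : List ℤ := [1000000000000, -3000000000000, 5934353468467, -9212777855744, 10775217228764, -8772053008753, 4693674008075, -1567298612951, 295757142886, -21374806241, -1909931865, 345468459]

def L4cT15 : List ℤ := [1000000000000, -4000000000000, 9542188921349, -15053406411607, 13676935553950, -5577626652622, -96757749103, 542154300564, 120063409958, -129350309835, 20698206602]

theorem pitLdT15 : pit4 140 17 (smE 15 LdT15 (.mul (.c 4) (.v 0)) (.mul (.c 4) (.v 1)) (.mul (.c 4) (.v 2))
    (.mul (.c 4) (.v 3)) (.c 16)) (lbS5E (-233466604682886512640000000000000) 108951082185347039232 3735465674926184202240 259407338536540569600 435804328741388156928 L1cT15 L2cT15 L3cT15 L4cT15) = true := by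
  decide +kernel

theorem pitXpsT15 : pit4 49 7 (smE 15 XpsT15 (.mul (.c 1) (.add (.c 1) (.v 0))) (.mul (.c 1) (.add (.c 1) (.v 1))) (.mul (.c 1) (.add (.c 1) (.v 2))) (.mul (.c 1) (.add (.c 1) (.v 3)))
    (.c 4)) (mulE9 (0) (0) (-386547056640) (74088185856) (0) (-11274289152) (0) (0) (0)) = true := by
  decide +kernel

theorem pitXcT15 : pit4 82 7 (smE 15 XcT15 (.mul (.c 1) (.add (.c 1) (.v 0))) (.mul (.c 1) (.add (.c 1) (.v 1))) (.mul (.c 1) (.add (.c 1) (.v 2))) (.mul (.c 1) (.add (.c 1) (.v 3)))
    (.c 4)) (mulE9 (1207959552000000000000) (-415568284876800000000) (-155524792320000000000) (-215337664512000000000) (653762809036800000000) (-74996672102400000000) (44089579929600000000) (27277865779200000000) (-85723604582400000000)) = true := by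
  decide +kernel

end Vale.Agent.P154
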