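import Vale.Agent.P154.TT.T15Chk
import Vale.Agent.P154.TT.T15Link
import Vale.Agent.P154.TT.Min15

/-! # P154 q = 4: the closure inequality on the full product of simplices for the class function `ps5 (23 / 10) (7 / 10)` -/

namespace Vale.Agent.P154

open Finset Vale.Agent.Util.Polya

noncomputable def cT15 : (Fin 4 → ℝ) → ℝ := mulQ9 1 (-13761 / 40000) (-103 / 800) (-11409 / 64000) (43297 / 80000) (-29801 / 480000) (46719 / 1280000) (43357 / 1920000) (-22709 / 320000)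

theorem masterT15 (w S D : ℕ) (Ld : TL) (Xs Xt : List TL) (hw : 0 < w) (hD : D < S)
    (hg : good D D w (certE D 0 1 0 1 Ld Xs Xt) = true)
    (hb' : 2 * bnd (certE D 0 1 0 1 Ld Xs Xt) < 2 ^ w)
    (hc : check w S D (certE D 0 1 0 1 Ld Xs Xt) 0 (S * S) = true)
    (a b : Fin 4 → ℝ) (ha0 : ∑ i, a i = 0) (ha : ∀ i, -1 ≤ a i) (hb0 : ∑ i, b i = 0)
    (hb : ∀ i, -1 ≤ b i) :
    0 ≤ ∑ σ : Equiv.Perm (Fin 4),
        sm D Ld (4 * uQ a (fun i => b (σ i)) 0) (4 * uQ a (fun i => b (σ i)) 1)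
          (4 * uQ a (fun i => b (σ i)) 2) (4 * uQ a (fun i => b (σ i)) 3) 16
      + dotRR (Xs.map (fun l => sm D l (1 + a 0) (1 + a 1) (1 + a 2) (1 + a 3) 4))
          (Xt.map (fun l => sm D l (1 * (1 + b 0)) (1 * (1 + b 1)) (1 * (1 + b 2))
            (1 * (1 + b 3)) 4)) := by
  have h := masterG w S D 0 1 0 1 Ld Xs Xt hw hD hg hb' hc _ _ 4 4 (sideT_one a ha0 ha)
    (sideT_one b hb0 hb)
  have e : ∀ (σ : Equiv.Perm (Fin 4)) (i : Fin 4),
      (1 + a i) * (1 + b (σ i)) = 4 * uQ a (fun i => b (σ i)) i := by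
    intro σ i
    unfold uQ
    ring
  simp only [e] at h
  have e16 : (4 : ℝ) * 4 = 16 := by norm_num
  rw [e16] at h
  simp only [one_mul]
  exact h

theorem l1T15_le (Z : ℝ) (h0 : 0 < Z) (h4 : Z ≤ 4) : ev1 (Z - 1) L1cT15 / 1000000000000 * Z ≤ 1 := by
  have h := Vale.Agent.P154.TT15.L1_le Z h0 h4
  have e : ev1 (Z - 1) L1cT15 / 1000000000000 = Vale.Agent.P154.TT15.L1 (Z - 1) := by
    simp only [L1cT15, ev1, evL]
    unfold Vale.Agent.P154.TT15.L1
    push_cast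
    ring
  rw [e]
  simpa using h

theorem l2T15_le (Z : ℝ) (h0 : 0 < Z) (h4 : Z ≤ 4) : ev1 (Z - 1) L2cT15 / 1000000000000 * Z ^ 2 ≤ 1 := by
  have h := Vale.Agent.P154.TT15.L2_le Z h0 h4
  have e : ev1 (Z - 1) L2cT15 / 1000000000000 = Vale.Agent.P154.TT15.L2 (Z - 1) := by
    simp only [L2cT15, ev1, evL]
    unfold Vale.Agent.P154.TT15.L2
    push_cast
    ring
  rw [e]
  exact h

theorem l3T15_le (Z : ℝ) (h0 : 0 < Z) (h4 : Z ≤ 4) : ev1 (Z - 1) L3cT15 / 1000000000000 * Z ^ 3 ≤ 1 := by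
  have h := Vale.Agent.P154.TT15.L3_le Z h0 h4
  have e : ev1 (Z - 1) L3cT15 / 1000000000000 = Vale.Agent.P154.TT15.L3 (Z - 1) := by
    simp only [L3cT15, ev1, evL]
    unfold Vale.Agent.P154.TT15.L3
    push_cast
    ring
  rw [e]
  exact h

theorem l4T15_le (Z : ℝ) (h0 : 0 < Z) (h4 : Z ≤ 4) : ev1 (Z - 1) L4cT15 / 1000000000000 * Z ^ 4 ≤ 1 := by
  have h := Vale.Agent.P154.TT15.L4_le Z h0 h4
  have e : ev1 (Z - 1) L4cT15 / 1000000000000 = Vale.Agent.P154.TT15.L4 (Z - 1) := by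
    simp only [L4cT15, ev1, evL]
    unfold Vale.Agent.P154.TT15.L4
    push_cast
    ring
  rw [e]
  exact h

theorem hpsT15 (a : Fin 4 → ℝ) :
    sm 15 XpsT15 (1 + a 0) (1 + a 1) (1 + a 2) (1 + a 3) 4 = (-4638564679680) * ps5 (23 / 10) (7 / 10) a := by
  have h := sm_eq_mulQ9 49 7 15 XpsT15 1 4 (0) (0) (-386547056640) (74088185856) (0) (-11274289152) (0) (0) (0) pitXpsT15 a
  push_cast at h
  simp only [one_mul] at h
  rw [h, ps5_eq_mulQ9]
  unfold mulQ9
  ring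

theorem hcT15 (a : Fin 4 → ℝ) :
    sm 15 XcT15 (1 + a 0) (1 + a 1) (1 + a 2) (1 + a 3) 4 = 1207959552000000000000 * cT15 a := by
  have h := sm_eq_mulQ9 82 7 15 XcT15 1 4 (1207959552000000000000) (-415568284876800000000) (-155524792320000000000) (-215337664512000000000) (653762809036800000000) (-74996672102400000000) (44089579929600000000) (27277865779200000000) (-85723604582400000000) pitXcT15 a
  push_cast at h
  simp only [one_mul] at h
  rw [h]
  unfold cT15 mulQ9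
  ring

theorem hLdT15 (u : Fin 4 → ℝ) :
    sm 15 LdT15 (4 * u 0) (4 * u 1) (4 * u 2) (4 * u 3) 16
      = 233466604682886512640000000000000 * lbS5 (23 / 10) (7 / 10) u (ev1 (e1Q u - 1) L1cT15 / 1000000000000) (ev1 (e1Q u - 1) L2cT15 / 1000000000000)
        (ev1 (e1Q u - 1) L3cT15 / 1000000000000) (ev1 (e1Q u - 1) L4cT15 / 1000000000000) := by
  have h := sm_eq_lbS5E 140 17 15 LdT15 4 16 (-233466604682886512640000000000000) 108951082185347039232 3735465674926184202240 259407338536540569600 435804328741388156928 L1cT15 L2cT15 L3cT15 L4cT15 pitLdT15 u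
  push_cast at h
  rw [h]
  unfold lbS5
  ring

theorem keyCT15 (a b : Fin 4 → ℝ) (ha : DT 1 a) (hb : DT 1 b) (hb1 : ∀ i, -1 < b i) :
    cT15 b * ps5 (23 / 10) (7 / 10) a + cT15 a * ps5 (23 / 10) (7 / 10) b ≤ avQ (KQ (ps5 (23 / 10) (7 / 10)) a) b :=
  keyG_asm (ps5 (23 / 10) (7 / 10))
    (fun u => lbS5 (23 / 10) (7 / 10) u (ev1 (e1Q u - 1) L1cT15 / 1000000000000) (ev1 (e1Q u - 1) L2cT15 / 1000000000000)
        (ev1 (e1Q u - 1) L3cT15 / 1000000000000) (ev1 (e1Q u - 1) L4cT15 / 1000000000000))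
    15 LdT15 XpsT15 XcT15 XcT15 XpsT15 4 16 1 4 4 233466604682886512640000000000000 (-4638564679680) 1207959552000000000000 1207959552000000000000 (-4638564679680) (by norm_num)
    cT15 cT15
    (fun a b ha hb hb1 => lbS5_le (23 / 10) (7 / 10) (by norm_num) (by norm_num) (by norm_num)
      (fun Z => ev1 (Z - 1) L1cT15 / 1000000000000) (fun Z => ev1 (Z - 1) L2cT15 / 1000000000000)
      (fun Z => ev1 (Z - 1) L3cT15 / 1000000000000) (fun Z => ev1 (Z - 1) L4cT15 / 1000000000000)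
      l1T15_le l2T15_le l3T15_le l4T15_le a b ha hb hb1)
    (fun a b ha hb => masterT15 167 16 15 LdT15 [XpsT15, XcT15] [XcT15, XpsT15] (by norm_num) (by norm_num)
      goodT15 bndT15 checkT15 a b ha.1 (fun i => by have := ha.2 i; linarith) hb.1 (fun i => by have := hb.2 i; linarith))
    hLdT15 hpsT15 (fun b => by simp only [one_mul]; exact hcT15 b) (by norm_num) hcT15
    (fun b => by simp only [one_mul]; exact hpsT15 b) (by norm_num) a b ha hb hb1

theorem cT15_nonneg (a : Fin 4 → ℝ) (ha : DT 1 a) : 0 ≤ cT15 a := by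
  have h := sm_nonneg_of_check 98 16 15 0 1 XcT15 (by norm_num) (by norm_num) goodT15A bndT15A checkT15A
    (fun i => 1 + a i) 4 (sideT_one a ha.1 (fun i => by have := ha.2 i; linarith))
  simp only [hcT15] at h
  exact (mul_nonneg_iff_of_pos_left (by norm_num)).1 h

end Vale.Agent.P154
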